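import Vale.Agent.P032.H314.Ev
import Vale.Agent.P032.H437.SatH

/-!
# P032: the list of excluded events

`dc d` : the column with the code `d` (12 octal digits).  `oke v = true` : the side conditions of an
event (the end column is in the closed set, every column of the closed set is in conflict with the
turned start column).  `kill_evs` : for a list of events with certificates and side conditions no
event of the list, renamed and turned, occurs at a centre of six colours with windows which contain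
honest directions.
-/

open Set Filter Topology Metric

noncomputable section

namespace Vale.Agent.P032.H314

open Vale.Agent.P032.Six Vale.Agent.P032.Sweep Vale.Agent.P032.S5.H767 Vale.Agent.P032.S5.H122
  Vale.Agent.P032.H158 Vale.Agent.P032.H782 Vale.Agent.P032.H429 Vale.Agent.P032.H437
  Vale.Agent.P032.H266 Vale.Agent.P032.H617

/-- the column with the code `d` -/
def dc (d : ℕ) : Cl := fun j => (f6 (dg d (2 * j.val)), f6 (dg d (2 * j.val + 1)))

theorem hcol_zero {A : AtK 2} {s : Bool} {d : ℕ} : Hcol A 0 s d ↔ UA A 0 s (dc d) := Iff.rfl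

theorem hcol_six {A : AtK 2} {s : Bool} {d : ℕ} : Hcol A 6 s d ↔ UA A 1 s (dc d) := Iff.rfl

/-! ### The side conditions -/

/-- one of the first four numbers is the last one -/
def eq4 (a0 a1 a2 a3 b : ℕ) : Bool := Nat.beq a0 b || (Nat.beq a1 b || (Nat.beq a2 b || Nat.beq a3 b))

/-- a common colour of the slots `j` and `j + 1` of the columns `c` and `p` turned by `m` -/
def ovj (m c p j : ℕ) : Bool :=
  eq4 (dg c (2 * j)) (dg c (2 * j + 1)) (dg p (2 * ((j + m) % 6))) (dg p (2 * ((j + m) % 6) + 1))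
    (dg c (2 * ((j + 1) % 6))) ||
  (eq4 (dg c (2 * j)) (dg c (2 * j + 1)) (dg p (2 * ((j + m) % 6))) (dg p (2 * ((j + m) % 6) + 1))
    (dg c (2 * ((j + 1) % 6) + 1)) ||
  (eq4 (dg c (2 * j)) (dg c (2 * j + 1)) (dg p (2 * ((j + m) % 6))) (dg p (2 * ((j + m) % 6) + 1))
    (dg p (2 * ((j + 1 + m) % 6))) ||
  eq4 (dg c (2 * j)) (dg c (2 * j + 1)) (dg p (2 * ((j + m) % 6))) (dg p (2 * ((j + m) % 6) + 1))
    (dg p (2 * ((j + 1 + m) % 6) + 1))))

/-- a conflict of the column `c` with the column `p` turned by `m` -/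
def ovb (m c p : ℕ) : Bool :=
  ovj m c p 0 || (ovj m c p 1 || (ovj m c p 2 || (ovj m c p 3 || (ovj m c p 4 || ovj m c p 5))))

/-- the members with a property -/
def anyg (f : ℕ → Bool) (L : List Gc) : Bool :=
  List.rec (motive := fun _ => Bool) false
    (fun g _ ih => Bool.rec (motive := fun _ => Bool) ih true (f g.c)) L

/-- the side conditions of an event -/
def oke (v : Ev) : Bool :=
  Ev.rec (motive := fun _ => Bool) (fun k p q L =>
    Bool.rec (motive := fun _ => Bool)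
      (Bool.rec (motive := fun _ => Bool) false (allc (fun g => ovb 5 g.c q) L)
        (anyg (fun c => Nat.beq c p) L))
      (Bool.rec (motive := fun _ => Bool) false (allc (fun g => ovb 1 g.c p) L)
        (anyg (fun c => Nat.beq c q) L)) (Nat.beq k 0)) v

theorem eq4_spec {a0 a1 a2 a3 b : ℕ} (h : eq4 a0 a1 a2 a3 b = true) :
    b = a0 ∨ b = a1 ∨ b = a2 ∨ b = a3 := by
  unfold eq4 at h
  simp only [Bool.or_eq_true] at h
  rcases h with h | h | h | h
  · exact Or.inl (Nat.eq_of_beq_eq_true h).symm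
  · exact Or.inr (Or.inl (Nat.eq_of_beq_eq_true h).symm)
  · exact Or.inr (Or.inr (Or.inl (Nat.eq_of_beq_eq_true h).symm))
  · exact Or.inr (Or.inr (Or.inr (Nat.eq_of_beq_eq_true h).symm))

theorem f6_add (j m : ℕ) : (f6 j + slot m).val = (j + m) % 6 := by
  show (j % 6 + m % 6) % 6 = (j + m) % 6
  omega

theorem ovj_spec {m c p j : ℕ} (hj : j < 6) (h : ovj m c p j = true) :
    Ov (dc c) fun i => dc p (i + slot m) := by
  have e0 : (f6 j).val = j := Nat.mod_eq_of_lt hj
  have e1 : (f6 j + slot m).val = (j + m) % 6 := f6_add j m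
  have e2 : (f6 j + 1).val = (j + 1) % 6 := f6_add j 1
  have e3 : (f6 j + 1 + slot m).val = (j + 1 + m) % 6 := by
    show ((j % 6 + 1 % 6) % 6 + m % 6) % 6 = (j + 1 + m) % 6
    omega
  unfold ovj at h
  simp only [Bool.or_eq_true] at h
  have key : ∀ b : ℕ, eq4 (dg c (2 * j)) (dg c (2 * j + 1)) (dg p (2 * ((j + m) % 6)))
      (dg p (2 * ((j + m) % 6) + 1)) b = true →
      (f6 b = (dc c (f6 j)).1 ∨ f6 b = (dc c (f6 j)).2 ∨ f6 b = (dc p (f6 j + slot m)).1 ∨
        f6 b = (dc p (f6 j + slot m)).2) := by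
    intro b hb
    unfold dc
    rw [e0, e1]
    rcases eq4_spec hb with h1 | h1 | h1 | h1
    · exact Or.inl (congrArg f6 h1)
    · exact Or.inr (Or.inl (congrArg f6 h1))
    · exact Or.inr (Or.inr (Or.inl (congrArg f6 h1)))
    · exact Or.inr (Or.inr (Or.inr (congrArg f6 h1)))
  rcases h with h | h | h | h
  · refine ⟨f6 j, _, key _ h, Or.inl ?_⟩
    unfold dc
    rw [e2]
  · refine ⟨f6 j, _, key _ h, Or.inr (Or.inl ?_)⟩
    unfold dc
    rw [e2]
  · refine ⟨f6 j, _, key _ h, Or.inr (Or.inr (Or.inl ?_))⟩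
    unfold dc
    simp only
    rw [e3]
  · refine ⟨f6 j, _, key _ h, Or.inr (Or.inr (Or.inr ?_))⟩
    unfold dc
    simp only
    rw [e3]

theorem ovb_spec {m c p : ℕ} (h : ovb m c p = true) : Ov (dc c) fun i => dc p (i + slot m) := by
  unfold ovb at h
  simp only [Bool.or_eq_true] at h
  rcases h with h | h | h | h | h | h
  all_goals exact ovj_spec (by omega) h

theorem ov_sh {c p : ℕ} (h : ovb 1 c p = true) : Ov (dc c) (sh (dc p)) := ovb_spec h

theorem ov_shb {c p : ℕ} (h : ovb 5 c p = true) : Ov (dc c) (shb (dc p)) := by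
  have h1 := ovb_spec h
  have e : (fun i => dc p (i + slot 5)) = shb (dc p) := by
    funext i
    have e1 : ∀ i : Fin 6, i + slot 5 = i - 1 := by decide
    show dc p (i + slot 5) = dc p (i - 1)
    rw [e1]
  rwa [e] at h1

theorem anyg_spec {f : ℕ → Bool} {L : List Gc} (h : anyg f L = true) : ∃ g ∈ L, f g.c = true := by
  induction L with
  | nil => cases h
  | cons d L ih =>
    cases hd : f d.c with
    | true => exact ⟨d, List.mem_cons_self, hd⟩
    | false =>
      have h1 : Bool.rec (motive := fun _ => Bool) (anyg f L) true (f d.c) = true := h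
      rw [hd] at h1
      obtain ⟨d', h2, h3⟩ := ih h1
      exact ⟨d', List.mem_cons_of_mem _ h2, h3⟩

/-- the columns of a closed set -/
def cols (L : List Gc) : List Cl := L.map fun g => dc g.c

theorem mem_cols {L : List Gc} {c : Cl} : c ∈ cols L ↔ ∃ g ∈ L, dc g.c = c := by
  unfold cols
  rw [List.mem_map]

/-- the statement of an event in terms of columns -/
theorem certF_of {p q : ℕ} {L : List Gc} {k : ℕ} (hk : Nat.beq k 0 = true)
    (h : ∀ {A : AtK 2}, H437.RK A → H437.WK A → (Ev.mk k p q L).cert A) :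
    CertF (dc p) (dc q) (cols L) := by
  intro A hA hW h1 h2 c hc h3 h4
  obtain ⟨g, hg, rfl⟩ := mem_cols.1 hc
  have h5 := h hA hW
  simp only [Ev.cert, hk, cond_true] at h5
  exact h5 h1 h2 g hg h3 fun g' hg' h6 => h4 _ (mem_cols.2 ⟨g', hg', rfl⟩) h6

theorem certB_of {p q : ℕ} {L : List Gc} {k : ℕ} (hk : Nat.beq k 0 = false)
    (h : ∀ {A : AtK 2}, H437.RK A → H437.WK A → (Ev.mk k p q L).cert A) :
    CertB (dc p) (dc q) (cols L) := by
  intro A hA hW h1 h2 c hc h3 h4
  obtain ⟨g, hg, rfl⟩ := mem_cols.1 hc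
  have h5 := h hA hW
  simp only [Ev.cert, hk, cond_false] at h5
  exact h5 h1 h2 g hg h3 fun g' hg' h6 => h4 _ (mem_cols.2 ⟨g', hg', rfl⟩) h6

variable {U : Fin 6 → Set ℂ} {T : ℂ → Set (Fin 6)} {z : ℂ} {X L R : Fin 6 → ℝ} {u : ℝ}
  {evs : List Ev}

/-- **the events of a list, for held columns** -/
theorem evs_hold (hcert : ∀ {A : AtK 2}, H437.RK A → H437.WK A → ∀ v ∈ evs, v.cert A)
    (hok : allc oke evs = true) (h : Irr U T)
    (hmin : ∀ z, 4 ≤ (T z).ncard → ∀ s, s ⊆ T z → s ≠ T z →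
      ¬ ∀ᶠ w in 𝓝 z, ∃ i ∈ s, w ∈ U i ∨ (w ∈ XX U ∧ i ∈ Pal U w))
    (h6 : ∀ i, i ∈ T z) (hX : ∀ i, X i ∈ HD U z i) {k p q : ℕ} {M : List Gc}
    (hv : Ev.mk k p q M ∈ evs) (g : Equiv.Perm (Fin 6)) (r : Fin 6)
    (hB : ∃ᶠ v in 𝓝[<] u, v ∈ GX T z X ∧ HoldX T z X (rc g r (dc p)) v)
    (hA : ∃ᶠ v in 𝓝[>] u, v ∈ GX T z X ∧ HoldX T z X (rc g r (dc q)) v) : False := by
  have h1 := allc_spec hok _ hv
  have h2 : (Bool.rec (motive := fun _ => Bool)
      (Bool.rec (motive := fun _ => Bool) false (allc (fun g => ovb 5 g.c q) M)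
        (anyg (fun c => Nat.beq c p) M))
      (Bool.rec (motive := fun _ => Bool) false (allc (fun g => ovb 1 g.c p) M)
        (anyg (fun c => Nat.beq c q) M)) (Nat.beq k 0)) = true := h1
  cases hk : Nat.beq k 0 with
  | true =>
    rw [hk] at h2
    obtain ⟨h3, h4⟩ := band (a := anyg (fun c => Nat.beq c q) M) h2
    obtain ⟨g', hg', h5⟩ := anyg_spec h3
    have h5' : g'.c = q := Nat.eq_of_beq_eq_true h5
    refine killF_hold (S := cols M) (certF_of hk fun hA hW => hcert hA hW _ hv)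
      (mem_cols.2 ⟨g', hg', by rw [h5']⟩) ?_ h hmin h6 hX g r hB hA
    intro c hc
    obtain ⟨g'', hg'', rfl⟩ := mem_cols.1 hc
    exact ov_sh (allc_spec h4 g'' hg'')
  | false =>
    rw [hk] at h2
    obtain ⟨h3, h4⟩ := band (a := anyg (fun c => Nat.beq c p) M) h2
    obtain ⟨g', hg', h5⟩ := anyg_spec h3
    have h5' : g'.c = p := Nat.eq_of_beq_eq_true h5
    refine killB_hold (S := cols M) (certB_of hk fun hA hW => hcert hA hW _ hv)
      (mem_cols.2 ⟨g', hg', by rw [h5']⟩) ?_ h hmin h6 hX g r hB hA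
    intro c hc
    obtain ⟨g'', hg'', rfl⟩ := mem_cols.1 hc
    exact ov_shb (allc_spec h4 g'' hg'')

/-- the events of a list, renamed and turned -/
def KldE (evs : List Ev) (a b : Cl) : Prop :=
  ∃ (k p q : ℕ) (M : List Gc), Ev.mk k p q M ∈ evs ∧ ∃ (g : Equiv.Perm (Fin 6)) (r : Fin 6),
    a = rc g r (dc p) ∧ b = rc g r (dc q)

/-- **no event of the list at a windowed centre** -/
theorem kill_evs (hcert : ∀ {A : AtK 2}, H437.RK A → H437.WK A → ∀ v ∈ evs, v.cert A)
    (hok : allc oke evs = true) (h : Irr U T)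
    (hmin : ∀ z, 4 ≤ (T z).ncard → ∀ s, s ⊆ T z → s ≠ T z →
      ¬ ∀ᶠ w in 𝓝 z, ∃ i ∈ s, w ∈ U i ∨ (w ∈ XX U ∧ i ∈ Pal U w))
    (h6 : ∀ i, i ∈ T z) (w : WinData T z L R) (hH : ∀ i, Hon U z L R i) :
    ∀ u, ∀ s ∈ LS T z L R u, ∀ s' ∈ RS T z L R u, ¬ KldE evs s.1 s'.1 := by
  rintro u s hs s' hs' ⟨k, p, q, M, hv, g, r, e1, e2⟩
  obtain ⟨X, hX, hXw⟩ := exists_hon hH
  refine evs_hold hcert hok h hmin h6 hX hv g r (u := u) ?_ ?_
  · rw [← e1]; exact freq_LS w hXw hs
  · rw [← e2]; exact freq_RS w hXw hs'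

end Vale.Agent.P032.H314
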