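import Vale.Agent.P032.H429.Line

/-!
# P032: an event without successor (form with subpairs)

`Hold T z L R A t` : at the time `t` the palettes of the six slots contain the colours of the column
`A`, the first colours with their windows in front, the second ones with their windows behind.  This
does not say that the palettes are pairs.

`no_pair` : if `Hold A` never ends at a time of `(u, u + 1)` then `Hold B` before `u` and `Hold A`
after `u` is impossible (when the 60-rule excludes `Hold A` and the turned `Hold B` at one time).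
`no_pair'` : the mirror form.  `no_pair3` : the form with two further times (first end of `Hold A`,
last begin of the turned `Hold B`).
-/

open Set Filter Topology Metric

noncomputable section

namespace Vale.Agent.P032.H314

open Vale.Agent.P032.Six Vale.Agent.P032.Sweep Vale.Agent.P032.S5.H767 Vale.Agent.P032.S5.H122
  Vale.Agent.P032.H429

/-! ### First and last changes of a locally constant property on a dense open set -/

section Change

variable {G : Set ℝ} {H : ℝ → Prop} {a b : ℝ}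

/-- **the first end of `H`** after `a` -/
theorem first_change (hd : Dense G) (hc : ∀ t ∈ G, ∀ᶠ t' in 𝓝 t, (H t' ↔ H t)) (ha : a ∈ G)
    (hHa : H a) (hb : b ∈ G) (hab : a < b) (hHb : ¬ H b) :
    ∃ x, a < x ∧ x < b ∧ (∀ v ∈ G, a ≤ v → v < x → H v) ∧ (∃ᶠ v in 𝓝[<] x, v ∈ G ∧ H v) ∧
      ∃ᶠ v in 𝓝[>] x, v ∈ G ∧ ¬ H v := by
  set S : Set ℝ := {t | a ≤ t ∧ ∀ v ∈ G, a ≤ v → v < t → H v} with hS
  have hbdd : BddAbove S := ⟨b, fun t ht => by
    by_contra hcon
    push Not at hcon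
    exact hHb (ht.2 b hb hab.le hcon)⟩
  have haS : a ∈ S := ⟨le_rfl, fun v _ h1 h2 => absurd h2 (not_lt.2 h1)⟩
  set x := sSup S with hx
  have hxa : a ≤ x := le_csSup hbdd haS
  have hxS : ∀ v ∈ G, a ≤ v → v < x → H v := by
    intro v hv h1 h2
    obtain ⟨t, ht, hvt⟩ := exists_lt_of_lt_csSup ⟨a, haS⟩ h2
    exact ht.2 v hv h1 hvt
  have hax : a < x := by
    obtain ⟨ε, hε, h1⟩ := Metric.eventually_nhds_iff.1 (hc a ha)
    have h2 : a + ε / 2 ∈ S := by
      refine ⟨by linarith, fun v _ h3 h4 => (h1 ?_).2 hHa⟩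
      rw [Real.dist_eq, abs_lt]
      constructor <;> linarith
    linarith [le_csSup hbdd h2]
  have hxb : x ≤ b := csSup_le ⟨a, haS⟩ fun t ht => by
    by_contra hcon
    push Not at hcon
    exact hHb (ht.2 b hb hab.le hcon)
  -- generic times accumulate from the left
  have hleft : ∀ c, c < x → ∃ v ∈ G, c < v ∧ v < x := by
    intro c hcx
    obtain ⟨v, hv2, hv1⟩ := hd.exists_mem_open isOpen_Ioo (nonempty_Ioo.2 hcx)
    exact ⟨v, hv2, hv1.1, hv1.2⟩
  -- a generic limit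
  have hlim : x ∈ G → H x := by
    intro hxG
    obtain ⟨ε, hε, h1⟩ := Metric.eventually_nhds_iff.1 (hc x hxG)
    obtain ⟨v, hv, h2, h3⟩ := hleft (max a (x - ε)) (max_lt hax (by linarith))
    refine (h1 (y := v) ?_).1 (hxS v hv ((le_max_left _ _).trans h2.le) h3)
    rw [Real.dist_eq, abs_lt]
    have := (le_max_right a (x - ε)).trans_lt h2
    constructor <;> linarith
  have hxb' : x < b := lt_of_le_of_ne hxb fun h => hHb (by rw [← h]; exact hlim (by rw [h]; exact hb))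
  refine ⟨x, hax, hxb', hxS, ?_, ?_⟩
  · rw [frequently_iff]
    intro W hW
    obtain ⟨c, hcx, hsub⟩ := mem_nhdsLT_iff_exists_Ioo_subset.1 hW
    obtain ⟨v, hv, h2, h3⟩ := hleft (max a c) (max_lt hax hcx)
    exact ⟨v, hsub ⟨(le_max_right _ _).trans_lt h2, h3⟩, hv, hxS v hv
      ((le_max_left _ _).trans h2.le) h3⟩
  · intro hcon
    obtain ⟨c, hcx, hsub⟩ := mem_nhdsGT_iff_exists_Ioo_subset.1 hcon
    have hcx : x < c := hcx
    have h2 : (x + c) / 2 ∈ S := by
      refine ⟨by linarith, fun v hv h3 h4 => ?_⟩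
      rcases lt_trichotomy v x with h5 | h5 | h5
      · exact hxS v hv h3 h5
      · rw [h5]
        exact hlim (by rw [← h5]; exact hv)
      · have h6 := hsub (show v ∈ Ioo x c from ⟨h5, by linarith⟩)
        by_contra h7
        exact h6 ⟨hv, h7⟩
    linarith [le_csSup hbdd h2]

/-- **the last begin of `H`** before `b` -/
theorem last_change (hd : Dense G) (hc : ∀ t ∈ G, ∀ᶠ t' in 𝓝 t, (H t' ↔ H t)) (ha : a ∈ G)
    (hHa : ¬ H a) (hb : b ∈ G) (hab : a < b) (hHb : H b) :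
    ∃ x, a < x ∧ x < b ∧ (∀ v ∈ G, x < v → v ≤ b → H v) ∧ (∃ᶠ v in 𝓝[<] x, v ∈ G ∧ ¬ H v) ∧
      ∃ᶠ v in 𝓝[>] x, v ∈ G ∧ H v := by
  have hcn : ∀ x : ℝ, Tendsto (fun v : ℝ => -v) (𝓝 x) (𝓝 (-x)) := fun x =>
    (continuous_neg.tendsto x)
  have hd' : Dense ((fun v : ℝ => -v) ⁻¹' G) :=
    hd.preimage (Homeomorph.neg ℝ).isOpenMap
  obtain ⟨x, h1, h2, h3, h4, h5⟩ := first_change (G := (fun v : ℝ => -v) ⁻¹' G)
    (H := fun v => H (-v)) (a := -b) (b := -a) hd' (fun t ht => (hcn t).eventually (hc (-t) ht))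
    (by simpa using hb) (by simpa using hHb) (by simpa using ha) (by linarith) (by simpa using hHa)
  have hl : Tendsto (fun v : ℝ => -v) (𝓝[<] x) (𝓝[>] (-x)) :=
    tendsto_nhdsWithin_iff.2 ⟨(hcn x).mono_left nhdsWithin_le_nhds, by
      filter_upwards [self_mem_nhdsWithin] with v hv
      exact neg_lt_neg (show v < x from hv)⟩
  have hr : Tendsto (fun v : ℝ => -v) (𝓝[>] x) (𝓝[<] (-x)) :=
    tendsto_nhdsWithin_iff.2 ⟨(hcn x).mono_left nhdsWithin_le_nhds, by
      filter_upwards [self_mem_nhdsWithin] with v hv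
      exact neg_lt_neg (show x < v from hv)⟩
  refine ⟨-x, by linarith, by linarith, fun v hv h6 h7 => ?_, hr.frequently h5, hl.frequently h4⟩
  have := h3 (-v) (by simpa using hv) (by linarith) (by linarith)
  simpa using this

end Change

/-! ### Columns contained in the palettes -/

/-- the column `A` is contained in the palettes at the time `t`, with the windows on the right sides -/
def Hold (T : ℂ → Set (Fin 6)) (z : ℂ) (L R : Fin 6 → ℝ) (A : Cl) (t : ℝ) : Prop :=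
  ∀ j : Fin 6, (A j).1 ∈ T (pt z (t + (j.val : ℝ))) ∧ (A j).2 ∈ T (pt z (t + (j.val : ℝ))) ∧
    inn (wn L R t (A j).1) (j.val : ZMod 6) ∧ out (wn L R t (A j).2) (j.val : ZMod 6)

/-- the turned column -/
def sh (A : Cl) : Cl := fun j => A (j + 1)

/-- two neighbouring slots of the union of the columns `A` and `B` have a common colour -/
def Ov (A B : Cl) : Prop :=
  ∃ j : Fin 6, ∃ c : Fin 6, (c = (A j).1 ∨ c = (A j).2 ∨ c = (B j).1 ∨ c = (B j).2) ∧
    (c = (A (j + 1)).1 ∨ c = (A (j + 1)).2 ∨ c = (B (j + 1)).1 ∨ c = (B (j + 1)).2)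

instance (A B : Cl) : Decidable (Ov A B) := by unfold Ov; infer_instance

variable {U : Fin 6 → Set ℂ} {T : ℂ → Set (Fin 6)} {z : ℂ} {L R : Fin 6 → ℝ} {u : ℝ} {A B : Cl}

theorem pt_slot (z : ℂ) (t : ℝ) (j : Fin 6) :
    pt z (t + 1 + (j.val : ℝ)) = pt z (t + ((j + 1 : Fin 6).val : ℝ)) := by
  have := pt_succ z 0 t j
  rw [zero_add] at this
  rw [this]
  congr 1
  ring

theorem hold_turn (T : ℂ → Set (Fin 6)) (z : ℂ) (L R : Fin 6 → ℝ) (A : Cl) (t : ℝ) :
    Hold T z L R (sh A) (t + 1) ↔ Hold T z L R A t := by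
  have key : ∀ j : Fin 6, ((sh A j).1 ∈ T (pt z (t + 1 + (j.val : ℝ))) ∧
      (sh A j).2 ∈ T (pt z (t + 1 + (j.val : ℝ))) ∧
      inn (wn L R (t + 1) (sh A j).1) (j.val : ZMod 6) ∧
      out (wn L R (t + 1) (sh A j).2) (j.val : ZMod 6)) ↔
      ((A (j + 1)).1 ∈ T (pt z (t + ((j + 1 : Fin 6).val : ℝ))) ∧
      (A (j + 1)).2 ∈ T (pt z (t + ((j + 1 : Fin 6).val : ℝ))) ∧
      inn (wn L R t (A (j + 1)).1) ((j + 1 : Fin 6).val : ZMod 6) ∧
      out (wn L R t (A (j + 1)).2) ((j + 1 : Fin 6).val : ZMod 6)) := by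
    intro j
    rw [pt_slot, wn_turn]
    unfold out
    simp only [WinData.inn_sub_one, WinData.fin_add_one]
    have e : (j.val : ZMod 6) + 3 + 1 = (j.val : ZMod 6) + 1 + 3 := by ring
    rw [e]
    exact Iff.rfl
  constructor
  · intro h j
    have := (key (j - 1)).1 (h (j - 1))
    simpa using this
  · intro h j
    exact (key j).2 (h (j + 1))

theorem hold_const {t : ℝ} (ht : t ∈ WinData.G T z L R) :
    ∀ᶠ v in 𝓝 t, (Hold T z L R A v ↔ Hold T z L R A t) := by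
  have h1 : ∀ j : Fin 6, ∀ᶠ v in 𝓝 t, T (pt z (v + (j.val : ℝ))) = T (pt z (t + (j.val : ℝ))) := by
    intro j
    have h2 : ∀ᶠ s in 𝓝 (t + (j.val : ℝ)), T (pt z s) = T (pt z (t + (j.val : ℝ))) := ht.1 j
    have hc : Tendsto (fun v : ℝ => v + (j.val : ℝ)) (𝓝 t) (𝓝 (t + (j.val : ℝ))) := by
      have : Continuous fun v : ℝ => v + (j.val : ℝ) := by fun_prop
      exact this.tendsto t
    exact hc.eventually h2
  filter_upwards [WinData.wn_const ht.2, eventually_all.2 h1] with v h2 h3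
  unfold Hold
  simp only [h2, h3]

/-- **the 60-rule** for two columns at one time -/
theorem hold_two (h : Irr U T) {t : ℝ} (ht : t ∈ WinData.G T z L R) (hov : Ov A B)
    (hA : Hold T z L R A t) (hB : Hold T z L R B t) : False := by
  obtain ⟨j, c, h1, h2⟩ := hov
  have e1 : c ∈ T (pt z (t + (j.val : ℝ))) := by
    rcases h1 with rfl | rfl | rfl | rfl
    exacts [(hA j).1, (hA j).2.1, (hB j).1, (hB j).2.1]
  have e2 : c ∈ T (pt z (t + ((j + 1 : Fin 6).val : ℝ))) := by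
    rcases h2 with rfl | rfl | rfl | rfl
    exacts [(hA _).1, (hA _).2.1, (hB _).1, (hB _).2.1]
  have e3 := dj_sixty h (ht.1 j)
  rw [show t + (j.val : ℝ) + 1 = t + 1 + (j.val : ℝ) by ring, pt_slot] at e3
  exact Set.disjoint_left.1 e3 e1 e2

theorem G_sub {t : ℝ} (ht : t ∈ WinData.G T z L R) : t - 1 ∈ WinData.G T z L R := by
  refine ⟨fun j => ?_, fun hM => ht.2 ?_⟩
  · -- the slots of `t - 1` are slots of `t`
    have h1 := ht.1 (j - 1)
    have h6 : ∀ j : Fin 6, ((j - 1 : Fin 6).val + 1 = j.val) ∨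
        ((j - 1 : Fin 6).val + 1 = j.val + 6) := by decide
    rcases h6 j with h7 | h7
    · have h8 : ((j - 1 : Fin 6).val : ℝ) + 1 = (j.val : ℝ) := by exact_mod_cast h7
      rw [show t - 1 + (j.val : ℝ) = t + ((j - 1 : Fin 6).val : ℝ) by linarith]
      exact h1
    · have h8 : ((j - 1 : Fin 6).val : ℝ) + 1 = (j.val : ℝ) + 6 := by exact_mod_cast h7
      rw [← Lc_per, show t - 1 + (j.val : ℝ) + 6 = t + ((j - 1 : Fin 6).val : ℝ) by linarith]
      exact h1
  · have := (WinData.M_turn L R (t - 1)).2 hM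
    rwa [sub_add_cancel] at this

/-- the two generic times used by all forms: `a` just after `u` with `Hold A`, `b` just before
`u + 1` with the turned `Hold B` -/
theorem two_times (hB : ∃ᶠ v in 𝓝[<] u, v ∈ WinData.G T z L R ∧ Hold T z L R B v)
    (hA : ∃ᶠ v in 𝓝[>] u, v ∈ WinData.G T z L R ∧ Hold T z L R A v) :
    ∃ a b, u < a ∧ a < b ∧ b < u + 1 ∧ a ∈ WinData.G T z L R ∧ b ∈ WinData.G T z L R ∧
      Hold T z L R A a ∧ Hold T z L R (sh B) b := by
  obtain ⟨v, ⟨hv1, hv2⟩, hv3⟩ := (hB.and_eventually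
    (Ioo_mem_nhdsLT (show u - 1 < u by linarith))).exists
  obtain ⟨a, ⟨ha1, ha2⟩, ha3⟩ := (hA.and_eventually
    (Ioo_mem_nhdsGT (show u < v + 1 by linarith [hv3.1]))).exists
  exact ⟨a, v + 1, ha3.1, ha3.2, by linarith [hv3.2], ha1, WinData.G_turn hv1, ha2,
    (hold_turn T z L R B v).2 hv2⟩

/-- **No successor.** -/
theorem no_pair (h : Irr U T) (hov : Ov A (sh B))
    (kill : ∀ x, u < x → x < u + 1 →
      (∃ᶠ v in 𝓝[<] x, v ∈ WinData.G T z L R ∧ Hold T z L R A v) →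
      (∃ᶠ v in 𝓝[>] x, v ∈ WinData.G T z L R ∧ ¬ Hold T z L R A v) → False)
    (hB : ∃ᶠ v in 𝓝[<] u, v ∈ WinData.G T z L R ∧ Hold T z L R B v)
    (hA : ∃ᶠ v in 𝓝[>] u, v ∈ WinData.G T z L R ∧ Hold T z L R A v) : False := by
  obtain ⟨a, b, h1, h2, h3, haG, hbG, haA, hbB⟩ := two_times hB hA
  by_cases h4 : Hold T z L R A b
  · exact hold_two h hbG hov h4 hbB
  · obtain ⟨x, h5, h6, -, h7, h8⟩ := first_change (WinData.G_dense h z L R)
      (fun t ht => hold_const (A := A) ht) haG haA hbG h2 h4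
    exact kill x (h1.trans h5) (h6.trans h3) h7 h8

/-- **No predecessor**, moved by one turn into `(u, u + 1)`. -/
theorem no_pair' (h : Irr U T) (hov : Ov A (sh B))
    (kill : ∀ y, u < y → y < u + 1 →
      (∃ᶠ v in 𝓝[<] y, v ∈ WinData.G T z L R ∧ ¬ Hold T z L R (sh B) v) →
      (∃ᶠ v in 𝓝[>] y, v ∈ WinData.G T z L R ∧ Hold T z L R (sh B) v) → False)
    (hB : ∃ᶠ v in 𝓝[<] u, v ∈ WinData.G T z L R ∧ Hold T z L R B v)
    (hA : ∃ᶠ v in 𝓝[>] u, v ∈ WinData.G T z L R ∧ Hold T z L R A v) : False := by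
  obtain ⟨a, b, h1, h2, h3, haG, hbG, haA, hbB⟩ := two_times hB hA
  by_cases h4 : Hold T z L R (sh B) a
  · exact hold_two h haG hov haA h4
  · obtain ⟨y, h5, h6, -, h7, h8⟩ := last_change (WinData.G_dense h z L R)
      (fun t ht => hold_const (A := sh B) ht) haG h4 hbG h2 hbB
    exact kill y (h1.trans h5) (h6.trans h3) h7 h8

/-- **The form with three times**: `x` is the first end of `Hold A`, `y` the last begin of the turned
`Hold B`. -/
theorem no_pair3 (h : Irr U T) (hov : Ov A (sh B))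
    (kill2 : ∀ x, u < x → x < u + 1 →
      (∃ᶠ v in 𝓝[<] x, v ∈ WinData.G T z L R ∧ Hold T z L R A v) →
      (∃ᶠ v in 𝓝[>] x, v ∈ WinData.G T z L R ∧ Hold T z L R (sh B) v) → False)
    (kill3 : ∀ x y, u < x → x < y → y < u + 1 →
      (∃ᶠ v in 𝓝[<] x, v ∈ WinData.G T z L R ∧ Hold T z L R A v) →
      (∃ᶠ v in 𝓝[>] x, v ∈ WinData.G T z L R ∧ ¬ Hold T z L R A v) →
      (∃ᶠ v in 𝓝[<] y, v ∈ WinData.G T z L R ∧ ¬ Hold T z L R (sh B) v) →
      (∃ᶠ v in 𝓝[>] y, v ∈ WinData.G T z L R ∧ Hold T z L R (sh B) v) → False)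
    (hB : ∃ᶠ v in 𝓝[<] u, v ∈ WinData.G T z L R ∧ Hold T z L R B v)
    (hA : ∃ᶠ v in 𝓝[>] u, v ∈ WinData.G T z L R ∧ Hold T z L R A v) : False := by
  obtain ⟨a, b, h1, h2, h3, haG, hbG, haA, hbB⟩ := two_times hB hA
  by_cases h4 : Hold T z L R A b
  · exact hold_two h hbG hov h4 hbB
  by_cases h4' : Hold T z L R (sh B) a
  · exact hold_two h haG hov haA h4'
  obtain ⟨x, hx1, hx2, hx3, hx4, hx5⟩ := first_change (WinData.G_dense h z L R)
    (fun t ht => hold_const (A := A) ht) haG haA hbG h2 h4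
  obtain ⟨y, hy1, hy2, hy3, hy4, hy5⟩ := last_change (WinData.G_dense h z L R)
    (fun t ht => hold_const (A := sh B) ht) haG h4' hbG h2 hbB
  rcases lt_trichotomy x y with hxy | hxy | hxy
  · exact kill3 x y (h1.trans hx1) hxy (hy2.trans h3) hx4 hx5 hy4 hy5
  · rw [← hxy] at hy5
    exact kill2 x (h1.trans hx1) (hx2.trans h3) hx4 hy5
  · obtain ⟨v, hv2, hv1⟩ := (WinData.G_dense h z L R).exists_mem_open isOpen_Ioo
      (nonempty_Ioo.2 hxy)
    exact hold_two h hv2 hov (hx3 v hv2 (hy1.trans hv1.1).le hv1.2)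
      (hy3 v hv2 hv1.1 (hv1.2.trans hx2).le)

/-! ### Closed sets of columns -/

/-- some column of `S` is contained in the palettes -/
def HoldS (T : ℂ → Set (Fin 6)) (z : ℂ) (L R : Fin 6 → ℝ) (S : Set Cl) (t : ℝ) : Prop :=
  ∃ c ∈ S, Hold T z L R c t

theorem holdS_const {S : Set Cl} {t : ℝ} (ht : t ∈ WinData.G T z L R) :
    ∀ᶠ v in 𝓝 t, (HoldS T z L R S v ↔ HoldS T z L R S t) := by
  have h1 : ∀ᶠ v in 𝓝 t, ∀ c : Cl, (Hold T z L R c v ↔ Hold T z L R c t) :=
    eventually_all.2 fun c => hold_const ht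
  filter_upwards [h1] with v hv
  unfold HoldS
  simp only [hv]

/-- **Closed set of columns**: `B` is held at a generic time `u`, `B ∈ S`, and `S` is never left in
`(u, u + 1)` : then the turned `B` is in conflict with `S`. -/
theorem no_col (h : Irr U T) {S : Set Cl} (hBS : B ∈ S) (hov : ∀ c ∈ S, Ov c (sh B))
    (leave : ∀ x, u < x → x < u + 1 → ∀ c ∈ S,
      (∃ᶠ v in 𝓝[<] x, v ∈ WinData.G T z L R ∧ Hold T z L R c v) →
      (∃ᶠ v in 𝓝[>] x, v ∈ WinData.G T z L R ∧ ∀ c' ∈ S, ¬ Hold T z L R c' v) → False)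
    (hu : u ∈ WinData.G T z L R) (hB : Hold T z L R B u) : False := by
  have hbB : Hold T z L R (sh B) (u + 1) := (hold_turn T z L R B u).2 hB
  have hbG : u + 1 ∈ WinData.G T z L R := WinData.G_turn hu
  by_cases h4 : HoldS T z L R S (u + 1)
  · obtain ⟨c, hc, h5⟩ := h4
    exact hold_two h hbG (hov c hc) h5 hbB
  · obtain ⟨x, h5, h6, -, h7, h8⟩ := first_change (WinData.G_dense h z L R)
      (fun t ht => holdS_const (S := S) ht) hu ⟨B, hBS, hB⟩ hbG (by linarith) h4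
    have h9 : ∃ c ∈ S, ∃ᶠ v in 𝓝[<] x, v ∈ WinData.G T z L R ∧ Hold T z L R c v := by
      by_contra hcon
      push Not at hcon
      have h10 : ∀ c : Cl, ∀ᶠ v in 𝓝[<] x, c ∈ S → ¬ (v ∈ WinData.G T z L R ∧ Hold T z L R c v) := by
        intro c
        by_cases hc : c ∈ S
        · filter_upwards [hcon c hc] with v hv _ hv'
          exact hv hv'.1 hv'.2
        · exact Eventually.of_forall fun v hc' => absurd hc' hc
      obtain ⟨v, ⟨hv1, c, hc, hv2⟩, hv3⟩ := (h7.and_eventually (eventually_all.2 h10)).exists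
      exact hv3 c hc ⟨hv1, hv2⟩
    obtain ⟨c, hc, h10⟩ := h9
    refine leave x h5 h6 c hc h10 (h8.mono fun v hv => ⟨hv.1, fun c' hc' h11 => hv.2 ⟨c', hc', h11⟩⟩)

/-- the same from an event `B | A` at `u` -/
theorem no_event (h : Irr U T) {S : Set Cl} (hAS : A ∈ S) (hov : ∀ c ∈ S, Ov c (sh B))
    (leave : ∀ x, u < x → x < u + 1 → ∀ c ∈ S,
      (∃ᶠ v in 𝓝[<] x, v ∈ WinData.G T z L R ∧ Hold T z L R c v) →
      (∃ᶠ v in 𝓝[>] x, v ∈ WinData.G T z L R ∧ ∀ c' ∈ S, ¬ Hold T z L R c' v) → False)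
    (hB : ∃ᶠ v in 𝓝[<] u, v ∈ WinData.G T z L R ∧ Hold T z L R B v)
    (hA : ∃ᶠ v in 𝓝[>] u, v ∈ WinData.G T z L R ∧ Hold T z L R A v) : False := by
  obtain ⟨a, b, h1, h2, h3, haG, hbG, haA, hbB⟩ := two_times hB hA
  by_cases h4 : HoldS T z L R S b
  · obtain ⟨c, hc, h5⟩ := h4
    exact hold_two h hbG (hov c hc) h5 hbB
  · obtain ⟨x, h5, h6, -, h7, h8⟩ := first_change (WinData.G_dense h z L R)
      (fun t ht => holdS_const (S := S) ht) haG ⟨A, hAS, haA⟩ hbG h2 h4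
    have h9 : ∃ c ∈ S, ∃ᶠ v in 𝓝[<] x, v ∈ WinData.G T z L R ∧ Hold T z L R c v := by
      by_contra hcon
      push Not at hcon
      have h10 : ∀ c : Cl, ∀ᶠ v in 𝓝[<] x, c ∈ S → ¬ (v ∈ WinData.G T z L R ∧ Hold T z L R c v) := by
        intro c
        by_cases hc : c ∈ S
        · filter_upwards [hcon c hc] with v hv _ hv'
          exact hv hv'.1 hv'.2
        · exact Eventually.of_forall fun v hc' => absurd hc' hc
      obtain ⟨v, ⟨hv1, c, hc, hv2⟩, hv3⟩ := (h7.and_eventually (eventually_all.2 h10)).exists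
      exact hv3 c hc ⟨hv1, hv2⟩
    obtain ⟨c, hc, h10⟩ := h9
    exact leave x (h1.trans h5) (h6.trans h3) c hc h10
      (h8.mono fun v hv => ⟨hv.1, fun c' hc' h11 => hv.2 ⟨c', hc', h11⟩⟩)

end Vale.Agent.P032.H314
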