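import Vale.Agent.P032.H314.HoldX
import Vale.Agent.P032.H617.PrmK

/-!
# P032: events of a windowed centre which are excluded by certificates with two times

`UA A c s B` : the literals of the column `B` in the atoms `A` at the time `c`, side `s`.
`CertF p q S` : forward certificates of the event `p | q` with the set `S` of columns; `CertB` :
backward certificates.
`killF`, `killB` : such an event, renamed and turned, does not occur at a centre of six colours with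
windows which contain honest directions.
`killF_hold`, `killB_hold` : the same for columns held with honest directions.
-/

open Set Filter Topology Metric

noncomputable section

namespace Vale.Agent.P032.H314

open Vale.Agent.P032.Six Vale.Agent.P032.Sweep Vale.Agent.P032.S5.H767 Vale.Agent.P032.S5.H122
  Vale.Agent.P032.H158 Vale.Agent.P032.H782 Vale.Agent.P032.H429 Vale.Agent.P032.H437
  Vale.Agent.P032.H266 Vale.Agent.P032.H617

/-- the literals of a column in the atoms -/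
def UA (A : AtK 2) (c : Fin 2) (s : Bool) (B : Cl) : Prop :=
  ∀ j : Fin 6, A.IN c s (H437.q0 2) j (B j).1 ∧ A.OUT c s (H437.q0 2) j (B j).2

/-- the certificates of a forward set of columns -/
def CertF (p q : Cl) (S : List Cl) : Prop :=
  ∀ A : AtK 2, H437.RK A → H437.WK A → UA A 0 false p → UA A 0 true q →
    ∀ c ∈ S, UA A 1 false c → (∀ c' ∈ S, ¬ UA A 1 true c') → False

/-- the certificates of a backward set of columns -/
def CertB (p q : Cl) (S : List Cl) : Prop :=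
  ∀ A : AtK 2, H437.RK A → H437.WK A → UA A 1 false p → UA A 1 true q →
    ∀ c ∈ S, UA A 0 true c → (∀ c' ∈ S, ¬ UA A 0 false c') → False

/-- the column before the turn -/
def shb (A : Cl) : Cl := fun j => A (j - 1)

/-- the renamed column -/
def nm (g : Equiv.Perm (Fin 6)) (A : Cl) : Cl := fun j => (g (A j).1, g (A j).2)

/-- the renamed and turned column -/
def rc (g : Equiv.Perm (Fin 6)) (r : Fin 6) (A : Cl) : Cl := fun j =>
  (g (A (j + r)).1, g (A (j + r)).2)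

variable {U : Fin 6 → Set ℂ} {T : ℂ → Set (Fin 6)} {z : ℂ} {X L R : Fin 6 → ℝ} {u : ℝ}
  {A B p q : Cl} {S : List Cl}

theorem ov_nm (g : Equiv.Perm (Fin 6)) (h : Ov A B) : Ov (nm g A) (nm g B) := by
  obtain ⟨j, c, h1, h2⟩ := h
  refine ⟨j, g c, ?_, ?_⟩
  · rcases h1 with rfl | rfl | rfl | rfl
    exacts [Or.inl rfl, Or.inr (Or.inl rfl), Or.inr (Or.inr (Or.inl rfl)),
      Or.inr (Or.inr (Or.inr rfl))]
  · rcases h2 with rfl | rfl | rfl | rfl
    exacts [Or.inl rfl, Or.inr (Or.inl rfl), Or.inr (Or.inr (Or.inl rfl)),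
      Or.inr (Or.inr (Or.inr rfl))]

theorem ua_prm {M : AtK 2} {c : Fin 2} {s : Bool} (g : Equiv.Perm (Fin 6)) :
    UA (M.prm g) c s B ↔ UA M c s (nm g B) := Iff.rfl

theorem ua_units {uu : Fin 2 → ℝ} {FF : Fin 2 → Bool → Ultrafilter ℝ} {c : Fin 2} {s : Bool} :
    UA (atkOf U T z uu FF X) c s B ↔ Units T z uu FF c s B := Iff.rfl

/-- **a forward event**, renamed -/
theorem killF0 (hc : CertF p q S) (hq : q ∈ S) (hov : ∀ c ∈ S, Ov c (sh p)) (h : Irr U T)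
    (hmin : ∀ z, 4 ≤ (T z).ncard → ∀ s, s ⊆ T z → s ≠ T z →
      ¬ ∀ᶠ w in 𝓝 z, ∃ i ∈ s, w ∈ U i ∨ (w ∈ XX U ∧ i ∈ Pal U w))
    (h6 : ∀ i, i ∈ T z) (hX : ∀ i, X i ∈ HD U z i) (g : Equiv.Perm (Fin 6))
    (hB : ∃ᶠ v in 𝓝[<] u, v ∈ GX T z X ∧ HoldX T z X (nm g p) v)
    (hA : ∃ᶠ v in 𝓝[>] u, v ∈ GX T z X ∧ HoldX T z X (nm g q) v) : False := by
  refine no_eventX (S := nm g '' {c | c ∈ S}) h hX ⟨q, hq, rfl⟩ ?_ ?_ hB hA
  · rintro _ ⟨c, hc', rfl⟩
    exact ov_nm g (hov c hc')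
  · rintro x FF hf h1 h2 _ ⟨c, hc', rfl⟩ h3 h4
    exact hc ((atkOf U T z ![u, x] FF X).prm g) ((rk_of hf hmin z h6 X).prm g)
      ((wk_of hf hX).prm g) h1 h2 c hc' h3 fun c' hc'' h5 => h4 _ ⟨c', hc'', rfl⟩ h5

/-- **a backward event**, renamed -/
theorem killB0 (hc : CertB p q S) (hp : p ∈ S) (hov : ∀ c ∈ S, Ov c (shb q)) (h : Irr U T)
    (hmin : ∀ z, 4 ≤ (T z).ncard → ∀ s, s ⊆ T z → s ≠ T z →
      ¬ ∀ᶠ w in 𝓝 z, ∃ i ∈ s, w ∈ U i ∨ (w ∈ XX U ∧ i ∈ Pal U w))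
    (h6 : ∀ i, i ∈ T z) (hX : ∀ i, X i ∈ HD U z i) (g : Equiv.Perm (Fin 6))
    (hB : ∃ᶠ v in 𝓝[<] u, v ∈ GX T z X ∧ HoldX T z X (nm g p) v)
    (hA : ∃ᶠ v in 𝓝[>] u, v ∈ GX T z X ∧ HoldX T z X (nm g q) v) : False := by
  refine no_eventX' (S := nm g '' {c | c ∈ S}) h hX ⟨p, hp, rfl⟩ ?_ ?_ hB hA
  · rintro _ ⟨c, hc', rfl⟩
    exact ov_nm g (hov c hc')
  · rintro x FF hf h1 h2 _ ⟨c, hc', rfl⟩ h3 h4
    exact hc ((atkOf U T z ![x, u] FF X).prm g) ((rk_of hf hmin z h6 X).prm g)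
      ((wk_of hf hX).prm g) h1 h2 c hc' h3 fun c' hc'' h5 => h4 _ ⟨c', hc'', rfl⟩ h5

/-! ### Turns -/

theorem freq_turnX {l : ℝ → Filter ℝ} (hl : l = (fun u => 𝓝[<] u) ∨ l = (fun u => 𝓝[>] u))
    (B : Cl) : ∀ (k : ℕ) (u : ℝ), (∃ᶠ v in l u, v ∈ GX T z X ∧ HoldX T z X B v) →
      ∃ᶠ v in l (u + k), v ∈ GX T z X ∧ HoldX T z X (sh^[k] B) v := by
  intro k
  induction k with
  | zero => intro u h; simpa using h
  | succ k ih =>
    intro u h
    have h1 := ih u h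
    rw [Function.iterate_succ', Nat.cast_succ, ← add_assoc]
    refine freq_add (p := fun v => v ∈ GX T z X ∧ HoldX T z X ((sh ∘ sh^[k]) B) v)
      hl (c := 1) (h1.mono fun v hv => ?_)
    exact ⟨WinData.G_turn hv.1, (holdX_turn T z X _ v).2 hv.2⟩

/-- a number as a slot -/
def slot (k : ℕ) : Fin 6 := ⟨k % 6, Nat.mod_lt _ (by decide)⟩

theorem slot_succ (k : ℕ) : slot (k + 1) = 1 + slot k := by
  apply Fin.ext
  show (k + 1) % 6 = (1 + k % 6) % 6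
  omega

theorem sh_iterX (B : Cl) (k : ℕ) : sh^[k] B = fun j => B (j + slot k) := by
  induction k with
  | zero =>
    funext j
    have e : ∀ j : Fin 6, j + slot 0 = j := by decide
    rw [e]
    rfl
  | succ k ih =>
    rw [Function.iterate_succ', Function.comp_apply, ih]
    funext j
    show B (j + 1 + slot k) = B (j + slot (k + 1))
    rw [slot_succ, add_assoc]

theorem sh_rc (g : Equiv.Perm (Fin 6)) (r : Fin 6) (B : Cl) :
    sh^[(-r).val] (rc g r B) = nm g B := by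
  rw [sh_iterX]
  have e : ∀ r j : Fin 6, j + slot (-r).val + r = j := by decide
  funext j
  show (g (B (j + slot (-r).val + r)).1, g (B (j + slot (-r).val + r)).2) = _
  rw [e]
  rfl

/-- turning back a renamed and turned column -/
theorem freq_rc {l : ℝ → Filter ℝ} (hl : l = (fun u => 𝓝[<] u) ∨ l = (fun u => 𝓝[>] u))
    {g : Equiv.Perm (Fin 6)} {r : Fin 6} {B : Cl}
    (hB : ∃ᶠ v in l u, v ∈ GX T z X ∧ HoldX T z X (rc g r B) v) :
    ∃ᶠ v in l (u + ((-r).val : ℕ)), v ∈ GX T z X ∧ HoldX T z X (nm g B) v := by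
  have h1 := freq_turnX hl (rc g r B) (-r).val u hB
  rwa [sh_rc] at h1

/-- **a forward event**, renamed and turned, for held columns -/
theorem killF_hold (hc : CertF p q S) (hq : q ∈ S) (hov : ∀ c ∈ S, Ov c (sh p)) (h : Irr U T)
    (hmin : ∀ z, 4 ≤ (T z).ncard → ∀ s, s ⊆ T z → s ≠ T z →
      ¬ ∀ᶠ w in 𝓝 z, ∃ i ∈ s, w ∈ U i ∨ (w ∈ XX U ∧ i ∈ Pal U w))
    (h6 : ∀ i, i ∈ T z) (hX : ∀ i, X i ∈ HD U z i) (g : Equiv.Perm (Fin 6)) (r : Fin 6)
    (hB : ∃ᶠ v in 𝓝[<] u, v ∈ GX T z X ∧ HoldX T z X (rc g r p) v)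
    (hA : ∃ᶠ v in 𝓝[>] u, v ∈ GX T z X ∧ HoldX T z X (rc g r q) v) : False :=
  killF0 hc hq hov h hmin h6 hX g (freq_rc (l := fun u => 𝓝[<] u) (Or.inl rfl) hB)
    (freq_rc (l := fun u => 𝓝[>] u) (Or.inr rfl) hA)

/-- **a backward event**, renamed and turned, for held columns -/
theorem killB_hold (hc : CertB p q S) (hp : p ∈ S) (hov : ∀ c ∈ S, Ov c (shb q)) (h : Irr U T)
    (hmin : ∀ z, 4 ≤ (T z).ncard → ∀ s, s ⊆ T z → s ≠ T z →
      ¬ ∀ᶠ w in 𝓝 z, ∃ i ∈ s, w ∈ U i ∨ (w ∈ XX U ∧ i ∈ Pal U w))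
    (h6 : ∀ i, i ∈ T z) (hX : ∀ i, X i ∈ HD U z i) (g : Equiv.Perm (Fin 6)) (r : Fin 6)
    (hB : ∃ᶠ v in 𝓝[<] u, v ∈ GX T z X ∧ HoldX T z X (rc g r p) v)
    (hA : ∃ᶠ v in 𝓝[>] u, v ∈ GX T z X ∧ HoldX T z X (rc g r q) v) : False :=
  killB0 hc hp hov h hmin h6 hX g (freq_rc (l := fun u => 𝓝[<] u) (Or.inl rfl) hB)
    (freq_rc (l := fun u => 𝓝[>] u) (Or.inr rfl) hA)

/-! ### Windows -/

/-- the times with a window end on a ray are isolated -/
theorem ev_not_M (L R : Fin 6 → ℝ) (u : ℝ) : ∀ᶠ v in 𝓝[≠] u, v ∉ WinData.M L R := by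
  have hf : ((WinData.M L R ∩ Ioo (u - 1) (u + 1)) \ {u}).Finite :=
    (WinData.M_finite L R (u - 1) (u + 1)).subset sdiff_subset
  have h1 : ∀ᶠ v in 𝓝 u, v ∉ (WinData.M L R ∩ Ioo (u - 1) (u + 1)) \ {u} :=
    hf.isClosed.isOpen_compl.mem_nhds fun h => h.2 rfl
  have h2 : ∀ᶠ v in 𝓝 u, v ∈ Ioo (u - 1) (u + 1) := Ioo_mem_nhds (by linarith) (by linarith)
  filter_upwards [mem_nhdsWithin_of_mem_nhds h1, mem_nhdsWithin_of_mem_nhds h2,
    self_mem_nhdsWithin] with v h3 h4 h5 h6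
  exact h3 ⟨⟨h6, h4⟩, h5⟩

/-- a column of the windows is held with the honest directions in the windows -/
theorem holdX_st (w : WinData T z L R) (hXw : ∀ i, ∃ n : ℤ, L i + 6 * n ≤ X i ∧ X i ≤ R i + 6 * n)
    {v : ℝ} (hv : v ∈ WinData.G T z L R) : HoldX T z X (WinData.st T z L R v).1 v := by
  intro j
  have h1 := w.col_spec hv.1 j
  refine ⟨h1.1, h1.2.1, ?_, ?_⟩
  · obtain ⟨n, h4, h5⟩ := (w.inn_iff (t := v) (i := (WinData.col T z L R v j).1)
      (j := (j.val : ℤ))).1 (by simpa using h1.2.2.2.1)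
    rw [← H429.sc_int, H429.le_sc] at h4
    rw [← H429.sc_int, H429.sc_lt] at h5
    push_cast at h4 h5
    obtain ⟨m, h6, h7⟩ := hXw (WinData.col T z L R v j).1
    have h8 : v + 3 / 2 + ((j.val : ℝ) - 3) < L (WinData.col T z L R v j).1 + 6 * n :=
      lt_of_le_of_ne h4 fun he =>
        hv.2 ⟨(WinData.col T z L R v j).1, (j.val : ℤ) - 3 - 6 * n, Or.inl (by
          push_cast; linarith)⟩
    exact cos_front (x := X (WinData.col T z L R v j).1) (t := v + (j.val : ℝ)) (n := n - m)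
      (by push_cast; linarith) (by push_cast; linarith)
  · obtain ⟨n, h4, h5⟩ := (w.out_iff (t := v) (i := (WinData.col T z L R v j).2)
      (j := (j.val : ℤ))).1 (by simpa using h1.2.2.2.2)
    rw [← H429.sc_int, H429.le_sc] at h4
    rw [← H429.sc_int, H429.sc_lt] at h5
    push_cast at h4 h5
    obtain ⟨m, h6, h7⟩ := hXw (WinData.col T z L R v j).2
    have h8 : v + 3 / 2 + (j.val : ℝ) < L (WinData.col T z L R v j).2 + 6 * n :=
      lt_of_le_of_ne h4 fun he =>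
        hv.2 ⟨(WinData.col T z L R v j).2, (j.val : ℤ) - 6 * n, Or.inl (by
          push_cast; linarith)⟩
    have h9 := cos_front (x := X (WinData.col T z L R v j).2) (t := v + (j.val : ℝ) + 3)
      (n := n - m) (by push_cast; linarith) (by push_cast; linarith)
    have e1 : (X (WinData.col T z L R v j).2 - (v + (j.val : ℝ) + 3)) * (Real.pi / 3) =
        (X (WinData.col T z L R v j).2 - (v + (j.val : ℝ))) * (Real.pi / 3) - Real.pi := by ring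
    rw [e1, Real.cos_sub_pi] at h9
    show Real.cos ((X (WinData.col T z L R v j).2 - (v + (j.val : ℝ))) * (Real.pi / 3)) < 0
    linarith

theorem freq_LS (w : WinData T z L R)
    (hXw : ∀ i, ∃ n : ℤ, L i + 6 * n ≤ X i ∧ X i ≤ R i + 6 * n) {s : St}
    (hs : s ∈ LS T z L R u) : ∃ᶠ v in 𝓝[<] u, v ∈ GX T z X ∧ HoldX T z X s.1 v := by
  have hs' : ∃ᶠ v in 𝓝[<] u, v ∈ WinData.G T z L R ∧ WinData.st T z L R v = s := hs
  have hM : ∀ᶠ v in 𝓝[<] u, v ∉ WinData.M X X :=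
    (ev_not_M X X u).filter_mono (nhdsWithin_mono u fun v hv => ne_of_lt hv)
  refine (hs'.and_eventually hM).mono fun v hv => ⟨⟨hv.1.1.1, hv.2⟩, ?_⟩
  rw [← hv.1.2]
  exact holdX_st w hXw hv.1.1

theorem freq_RS (w : WinData T z L R)
    (hXw : ∀ i, ∃ n : ℤ, L i + 6 * n ≤ X i ∧ X i ≤ R i + 6 * n) {s : St}
    (hs : s ∈ RS T z L R u) : ∃ᶠ v in 𝓝[>] u, v ∈ GX T z X ∧ HoldX T z X s.1 v := by
  have hs' : ∃ᶠ v in 𝓝[>] u, v ∈ WinData.G T z L R ∧ WinData.st T z L R v = s := hs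
  have hM : ∀ᶠ v in 𝓝[>] u, v ∉ WinData.M X X :=
    (ev_not_M X X u).filter_mono (nhdsWithin_mono u fun v hv => ne_of_gt hv)
  refine (hs'.and_eventually hM).mono fun v hv => ⟨⟨hv.1.1.1, hv.2⟩, ?_⟩
  rw [← hv.1.2]
  exact holdX_st w hXw hv.1.1

/-- honest directions in the windows -/
theorem exists_hon (hH : ∀ i, Hon U z L R i) : ∃ X : Fin 6 → ℝ, (∀ i, X i ∈ HD U z i) ∧
    ∀ i, ∃ n : ℤ, L i + 6 * n ≤ X i ∧ X i ≤ R i + 6 * n := by
  choose X hX hXw using hH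
  exact ⟨X, hX, hXw⟩

/-- **a forward event of the windows**, renamed and turned -/
theorem killF (hc : CertF p q S) (hq : q ∈ S) (hov : ∀ c ∈ S, Ov c (sh p)) (h : Irr U T)
    (hmin : ∀ z, 4 ≤ (T z).ncard → ∀ s, s ⊆ T z → s ≠ T z →
      ¬ ∀ᶠ w in 𝓝 z, ∃ i ∈ s, w ∈ U i ∨ (w ∈ XX U ∧ i ∈ Pal U w))
    (h6 : ∀ i, i ∈ T z) (w : WinData T z L R) (hH : ∀ i, Hon U z L R i) :
    ∀ u, ∀ s ∈ LS T z L R u, ∀ s' ∈ RS T z L R u, ∀ (g : Equiv.Perm (Fin 6)) (r : Fin 6),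
      ¬ (s.1 = rc g r p ∧ s'.1 = rc g r q) := by
  rintro u s hs s' hs' g r ⟨e1, e2⟩
  obtain ⟨X, hX, hXw⟩ := exists_hon hH
  refine killF_hold hc hq hov h hmin h6 hX g r (u := u) ?_ ?_
  · rw [← e1]; exact freq_LS w hXw hs
  · rw [← e2]; exact freq_RS w hXw hs'

/-- **a backward event of the windows**, renamed and turned -/
theorem killB (hc : CertB p q S) (hp : p ∈ S) (hov : ∀ c ∈ S, Ov c (shb q)) (h : Irr U T)
    (hmin : ∀ z, 4 ≤ (T z).ncard → ∀ s, s ⊆ T z → s ≠ T z →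
      ¬ ∀ᶠ w in 𝓝 z, ∃ i ∈ s, w ∈ U i ∨ (w ∈ XX U ∧ i ∈ Pal U w))
    (h6 : ∀ i, i ∈ T z) (w : WinData T z L R) (hH : ∀ i, Hon U z L R i) :
    ∀ u, ∀ s ∈ LS T z L R u, ∀ s' ∈ RS T z L R u, ∀ (g : Equiv.Perm (Fin 6)) (r : Fin 6),
      ¬ (s.1 = rc g r p ∧ s'.1 = rc g r q) := by
  rintro u s hs s' hs' g r ⟨e1, e2⟩
  obtain ⟨X, hX, hXw⟩ := exists_hon hH
  refine killB_hold hc hp hov h hmin h6 hX g r (u := u) ?_ ?_
  · rw [← e1]; exact freq_LS w hXw hs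
  · rw [← e2]; exact freq_RS w hXw hs'

end Vale.Agent.P032.H314
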