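import Vale.Agent.P032.H314.NoSucc
import Vale.Agent.P032.H617.WR

/-!
# P032: columns at a centre with one honest direction per colour, units of the certificates

No windows: `X i ∈ HD U z i` is one honest direction of the colour `i` (`H266.HD`).

`HoldX T z X A t` : the palettes of the six slots at the time `t` contain the colours of the column
`A`, the first ones with their directions strictly in front, the second ones strictly behind.
`exists_holdX` : at every generic time some column is held.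
`no_colX`, `no_eventX`, `no_pairX3` : closed sets of columns (base: a generic time, an event, an event
and two further times).
`frK_of` : the frame of the times `uu` for given sets of times; `units_of`, `not_units` : `HoldX` is
the conjunction of the twelve literals `IK`, `OK`.
-/

open Set Filter Topology Metric

noncomputable section

namespace Vale.Agent.P032.H314

open Vale.Agent.P032.Six Vale.Agent.P032.Sweep Vale.Agent.P032.S5.H767 Vale.Agent.P032.S5.H122
  Vale.Agent.P032.H158 Vale.Agent.P032.H782 Vale.Agent.P032.H429 Vale.Agent.P032.H437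
  Vale.Agent.P032.H266 Vale.Agent.P032.H617

/-! ### Closed sets of columns, abstract form -/

/-- a time line of columns: `G` dense, invariant under the turn; `H A` locally constant on `G`,
compatible with the turn; conflicting columns are not held together -/
structure Line (G : Set ℝ) (H : Cl → ℝ → Prop) : Prop where
  dense : Dense G
  turn : ∀ t ∈ G, t + 1 ∈ G
  back : ∀ t ∈ G, t - 1 ∈ G
  const : ∀ A, ∀ t ∈ G, ∀ᶠ t' in 𝓝 t, (H A t' ↔ H A t)
  sh : ∀ A t, H (sh A) (t + 1) ↔ H A t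
  two : ∀ t ∈ G, ∀ A B, Ov A B → H A t → H B t → False

namespace Line

variable {G : Set ℝ} {H : Cl → ℝ → Prop} {u : ℝ} {A B : Cl} {S : Set Cl}

theorem const_set (l : Line G H) (S : Set Cl) {t : ℝ} (ht : t ∈ G) :
    ∀ᶠ v in 𝓝 t, ((∃ c ∈ S, H c v) ↔ ∃ c ∈ S, H c t) := by
  have h1 : ∀ᶠ v in 𝓝 t, ∀ c : Cl, (H c v ↔ H c t) := eventually_all.2 fun c => l.const c t ht
  filter_upwards [h1] with v hv
  simp only [hv]

/-- some column of `S` is held frequently -/
theorem freq_set {l : Filter ℝ} (h7 : ∃ᶠ v in l, v ∈ G ∧ ∃ c ∈ S, H c v) :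
    ∃ c ∈ S, ∃ᶠ v in l, v ∈ G ∧ H c v := by
  by_contra hcon
  push Not at hcon
  have h10 : ∀ c : Cl, ∀ᶠ v in l, c ∈ S → ¬ (v ∈ G ∧ H c v) := by
    intro c
    by_cases hc : c ∈ S
    · filter_upwards [hcon c hc] with v hv _ hv'
      exact hv hv'.1 hv'.2
    · exact Eventually.of_forall fun v hc' => absurd hc' hc
  obtain ⟨v, ⟨hv1, c, hc, hv2⟩, hv3⟩ := (h7.and_eventually (eventually_all.2 h10)).exists
  exact hv3 c hc ⟨hv1, hv2⟩

/-- from `a` with a column of `S` to `b` with the turned `B` -/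
theorem leave_aux (l : Line G H) {a b : ℝ} (haG : a ∈ G) (hbG : b ∈ G) (hab : a < b)
    (hA : ∃ c ∈ S, H c a) (hB : H (H314.sh B) b) (hov : ∀ c ∈ S, Ov c (H314.sh B))
    (leave : ∀ x, a < x → x < b → ∀ c ∈ S, (∃ᶠ v in 𝓝[<] x, v ∈ G ∧ H c v) →
      (∃ᶠ v in 𝓝[>] x, v ∈ G ∧ ∀ c' ∈ S, ¬ H c' v) → False) : False := by
  by_cases h4 : ∃ c ∈ S, H c b
  · obtain ⟨c, hc, h5⟩ := h4
    exact l.two b hbG c _ (hov c hc) h5 hB
  · obtain ⟨x, h5, h6, -, h7, h8⟩ := first_change (H := fun t => ∃ c ∈ S, H c t) l.dense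
      (fun t ht => l.const_set S ht) haG hA hbG hab h4
    obtain ⟨c, hc, h10⟩ := freq_set h7
    exact leave x h5 h6 c hc h10 (h8.mono fun v hv => ⟨hv.1, fun c' hc' h11 => hv.2 ⟨c', hc', h11⟩⟩)

/-- **Closed set of columns, generic base** -/
theorem no_col (l : Line G H) (hBS : B ∈ S) (hov : ∀ c ∈ S, Ov c (H314.sh B))
    (leave : ∀ x, u < x → x < u + 1 → ∀ c ∈ S, (∃ᶠ v in 𝓝[<] x, v ∈ G ∧ H c v) →
      (∃ᶠ v in 𝓝[>] x, v ∈ G ∧ ∀ c' ∈ S, ¬ H c' v) → False)
    (hu : u ∈ G) (hB : H B u) : False :=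
  l.leave_aux hu (l.turn u hu) (by linarith) ⟨B, hBS, hB⟩ ((l.sh B u).2 hB) hov leave

/-- the two generic times of an event -/
theorem two_times (l : Line G H) (hB : ∃ᶠ v in 𝓝[<] u, v ∈ G ∧ H B v)
    (hA : ∃ᶠ v in 𝓝[>] u, v ∈ G ∧ H A v) :
    ∃ a b, u < a ∧ a < b ∧ b < u + 1 ∧ a ∈ G ∧ b ∈ G ∧ H A a ∧ H (H314.sh B) b := by
  obtain ⟨v, ⟨hv1, hv2⟩, hv3⟩ := (hB.and_eventually
    (Ioo_mem_nhdsLT (show u - 1 < u by linarith))).exists
  obtain ⟨a, ⟨ha1, ha2⟩, ha3⟩ := (hA.and_eventually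
    (Ioo_mem_nhdsGT (show u < v + 1 by linarith [hv3.1]))).exists
  exact ⟨a, v + 1, ha3.1, ha3.2, by linarith [hv3.2], ha1, l.turn v hv1, ha2, (l.sh B v).2 hv2⟩

/-- **Closed set of columns, base `B | A`** -/
theorem no_event (l : Line G H) (hAS : A ∈ S) (hov : ∀ c ∈ S, Ov c (H314.sh B))
    (leave : ∀ x, u < x → x < u + 1 → ∀ c ∈ S, (∃ᶠ v in 𝓝[<] x, v ∈ G ∧ H c v) →
      (∃ᶠ v in 𝓝[>] x, v ∈ G ∧ ∀ c' ∈ S, ¬ H c' v) → False)
    (hB : ∃ᶠ v in 𝓝[<] u, v ∈ G ∧ H B v) (hA : ∃ᶠ v in 𝓝[>] u, v ∈ G ∧ H A v) : False := by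
  obtain ⟨a, b, h1, h2, h3, haG, hbG, haA, hbB⟩ := l.two_times hB hA
  exact l.leave_aux haG hbG h2 ⟨A, hAS, haA⟩ hbB hov fun x hx1 hx2 =>
    leave x (h1.trans hx1) (hx2.trans h3)

/-- backwards: from `b` with a column of `S` to `a` with a column `B` in conflict with `S` -/
theorem enter_aux (l : Line G H) {a b : ℝ} (haG : a ∈ G) (hbG : b ∈ G) (hab : a < b)
    (hB : H B a) (hA : ∃ c ∈ S, H c b) (hov : ∀ c ∈ S, Ov c B)
    (enter : ∀ x, a < x → x < b → ∀ c ∈ S, (∃ᶠ v in 𝓝[<] x, v ∈ G ∧ ∀ c' ∈ S, ¬ H c' v) →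
      (∃ᶠ v in 𝓝[>] x, v ∈ G ∧ H c v) → False) : False := by
  by_cases h4 : ∃ c ∈ S, H c a
  · obtain ⟨c, hc, h5⟩ := h4
    exact l.two a haG c _ (hov c hc) h5 hB
  · obtain ⟨x, h5, h6, -, h7, h8⟩ := last_change (H := fun t => ∃ c ∈ S, H c t) l.dense
      (fun t ht => l.const_set S ht) haG h4 hbG hab hA
    obtain ⟨c, hc, h10⟩ := freq_set h8
    exact enter x h5 h6 c hc
      (h7.mono fun v hv => ⟨hv.1, fun c' hc' h11 => hv.2 ⟨c', hc', h11⟩⟩) h10

/-- **Closed set of columns, base `B | A`, backwards** -/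
theorem no_event' (l : Line G H) (hBS : B ∈ S) (hov : ∀ c ∈ S, Ov c fun j => A (j - 1))
    (enter : ∀ x, u - 1 < x → x < u → ∀ c ∈ S, (∃ᶠ v in 𝓝[<] x, v ∈ G ∧ ∀ c' ∈ S, ¬ H c' v) →
      (∃ᶠ v in 𝓝[>] x, v ∈ G ∧ H c v) → False)
    (hB : ∃ᶠ v in 𝓝[<] u, v ∈ G ∧ H B v) (hA : ∃ᶠ v in 𝓝[>] u, v ∈ G ∧ H A v) : False := by
  obtain ⟨v, ⟨hv1, hv2⟩, hv3⟩ := (hA.and_eventually
    (Ioo_mem_nhdsGT (show u < u + 1 by linarith))).exists
  obtain ⟨b, ⟨hb1, hb2⟩, hb3⟩ := (hB.and_eventually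
    (Ioo_mem_nhdsLT (show v - 1 < u by linarith [hv3.2]))).exists
  have h1 : H (fun j => A (j - 1)) (v - 1) := by
    rw [← l.sh, sub_add_cancel]
    have e : H314.sh (fun j => A (j - 1)) = A := by
      funext j
      simp [H314.sh]
    rw [e]
    exact hv2
  exact l.enter_aux (l.back v hv1) hb1 hb3.1 h1 ⟨B, hBS, hb2⟩ hov fun x hx1 hx2 =>
    enter x (by linarith [hv3.1]) (hx2.trans hb3.2)

end Line

/-! ### The columns of a centre with honest directions -/

/-- `A` is held at the time `t` -/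
def HoldX (T : ℂ → Set (Fin 6)) (z : ℂ) (X : Fin 6 → ℝ) (A : Cl) (t : ℝ) : Prop :=
  ∀ j : Fin 6, (A j).1 ∈ T (pt z (t + (j.val : ℝ))) ∧ (A j).2 ∈ T (pt z (t + (j.val : ℝ))) ∧
    0 < Real.cos ((X (A j).1 - (t + (j.val : ℝ))) * (Real.pi / 3)) ∧
    Real.cos ((X (A j).2 - (t + (j.val : ℝ))) * (Real.pi / 3)) < 0

/-- the generic times -/
def GX (T : ℂ → Set (Fin 6)) (z : ℂ) (X : Fin 6 → ℝ) : Set ℝ := WinData.G T z X X

variable {U : Fin 6 → Set ℂ} {T : ℂ → Set (Fin 6)} {z : ℂ} {X : Fin 6 → ℝ} {u : ℝ} {A B : Cl}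

theorem cos_ne {t : ℝ} (ht : t ∈ GX T z X) (i j : Fin 6) :
    Real.cos ((X i - (t + (j.val : ℝ))) * (Real.pi / 3)) ≠ 0 := by
  intro h0
  obtain ⟨k, hk⟩ := Real.cos_eq_zero_iff.1 h0
  refine ht.2 ⟨i, (j.val : ℤ) + 3 * k, Or.inl ?_⟩
  have hpi : Real.pi ≠ 0 := Real.pi_ne_zero
  field_simp at hk
  push_cast
  linarith

theorem holdX_const {t : ℝ} (ht : t ∈ GX T z X) :
    ∀ᶠ v in 𝓝 t, (HoldX T z X A v ↔ HoldX T z X A t) := by
  have h1 : ∀ j : Fin 6, ∀ᶠ v in 𝓝 t, T (pt z (v + (j.val : ℝ))) = T (pt z (t + (j.val : ℝ))) := by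
    intro j
    have h2 : ∀ᶠ s in 𝓝 (t + (j.val : ℝ)), T (pt z s) = T (pt z (t + (j.val : ℝ))) := ht.1 j
    have hc : Tendsto (fun v : ℝ => v + (j.val : ℝ)) (𝓝 t) (𝓝 (t + (j.val : ℝ))) := by
      have : Continuous fun v : ℝ => v + (j.val : ℝ) := by fun_prop
      exact this.tendsto t
    exact hc.eventually h2
  have h2 : ∀ i j : Fin 6, ∀ᶠ v in 𝓝 t,
      ((0 < Real.cos ((X i - (v + (j.val : ℝ))) * (Real.pi / 3)) ↔
        0 < Real.cos ((X i - (t + (j.val : ℝ))) * (Real.pi / 3))) ∧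
      (Real.cos ((X i - (v + (j.val : ℝ))) * (Real.pi / 3)) < 0 ↔
        Real.cos ((X i - (t + (j.val : ℝ))) * (Real.pi / 3)) < 0)) := by
    intro i j
    have hc : Continuous fun v : ℝ => Real.cos ((X i - (v + (j.val : ℝ))) * (Real.pi / 3)) := by
      fun_prop
    rcases lt_or_gt_of_ne (cos_ne ht i j) with h3 | h3
    · filter_upwards [hc.continuousAt.eventually (Iio_mem_nhds h3)] with v hv
      have hv : Real.cos ((X i - (v + (j.val : ℝ))) * (Real.pi / 3)) < 0 := hv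
      exact ⟨⟨fun h => absurd h (not_lt.2 hv.le), fun h => absurd h (not_lt.2 h3.le)⟩,
        ⟨fun _ => h3, fun _ => hv⟩⟩
    · filter_upwards [hc.continuousAt.eventually (Ioi_mem_nhds h3)] with v hv
      have hv : 0 < Real.cos ((X i - (v + (j.val : ℝ))) * (Real.pi / 3)) := hv
      exact ⟨⟨fun _ => h3, fun _ => hv⟩,
        ⟨fun h => absurd h (not_lt.2 hv.le), fun h => absurd h (not_lt.2 h3.le)⟩⟩
  filter_upwards [eventually_all.2 h1, eventually_all.2 fun i => eventually_all.2 (h2 i)]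
    with v h3 h4
  unfold HoldX
  refine forall_congr' fun j => ?_
  rw [h3 j, (h4 (A j).1 j).1, (h4 (A j).2 j).2]

theorem cos_slot (x t : ℝ) (j : Fin 6) :
    Real.cos ((x - (t + 1 + (j.val : ℝ))) * (Real.pi / 3)) =
      Real.cos ((x - (t + ((j + 1 : Fin 6).val : ℝ))) * (Real.pi / 3)) := by
  have h6 : ∀ j : Fin 6, ((j + 1 : Fin 6).val = j.val + 1) ∨
      ((j + 1 : Fin 6).val + 6 = j.val + 1) := by decide
  rcases h6 j with h7 | h7
  · have h8 : ((j + 1 : Fin 6).val : ℝ) = (j.val : ℝ) + 1 := by exact_mod_cast h7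
    rw [h8]
    congr 2
    ring
  · have h8 : ((j + 1 : Fin 6).val : ℝ) + 6 = (j.val : ℝ) + 1 := by exact_mod_cast h7
    have e : (x - (t + ((j + 1 : Fin 6).val : ℝ))) * (Real.pi / 3) =
        (x - (t + 1 + (j.val : ℝ))) * (Real.pi / 3) + 2 * Real.pi := by
      rw [show ((j + 1 : Fin 6).val : ℝ) = (j.val : ℝ) + 1 - 6 by linarith]
      ring
    rw [e, Real.cos_add_two_pi]

theorem holdX_turn (T : ℂ → Set (Fin 6)) (z : ℂ) (X : Fin 6 → ℝ) (A : Cl) (t : ℝ) :
    HoldX T z X (sh A) (t + 1) ↔ HoldX T z X A t := by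
  constructor
  · intro h j
    have h1 := h (j - 1)
    rw [pt_slot, cos_slot, cos_slot] at h1
    simpa [sh] using h1
  · intro h j
    rw [pt_slot, cos_slot, cos_slot]
    exact h (j + 1)

theorem holdX_two (h : Irr U T) {t : ℝ} (ht : t ∈ GX T z X) (hov : Ov A B)
    (hA : HoldX T z X A t) (hB : HoldX T z X B t) : False := by
  obtain ⟨j, c, h1, h2⟩ := hov
  have e1 : c ∈ T (pt z (t + (j.val : ℝ))) := by
    rcases h1 with rfl | rfl | rfl | rfl
    exacts [(hA j).1, (hA j).2.1, (hB j).1, (hB j).2.1]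
  have e2 : c ∈ T (pt z (t + ((j + 1 : Fin 6).val : ℝ))) := by
    rcases h2 with rfl | rfl | rfl | rfl
    exacts [(hA _).1, (hA _).2.1, (hB _).1, (hB _).2.1]
  have e3 := dj_sixty h (ht.1 j)
  rw [show t + (j.val : ℝ) + 1 = t + 1 + (j.val : ℝ) by ring, pt_slot] at e3
  exact Set.disjoint_left.1 e3 e1 e2

/-- **the time line of a centre with honest directions** -/
theorem line_of (h : Irr U T) (z : ℂ) (X : Fin 6 → ℝ) : Line (GX T z X) (HoldX T z X) where
  dense := WinData.G_dense h z X X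
  turn := fun _ ht => WinData.G_turn ht
  back := fun _ ht => G_sub ht
  const := fun _ _ ht => holdX_const ht
  sh := fun A t => holdX_turn T z X A t
  two := fun _ ht _ _ hov => holdX_two h ht hov

/-- **at every generic time some column is held** -/
theorem exists_holdX (h : Irr U T) (hX : ∀ i, X i ∈ HD U z i) {t : ℝ} (ht : t ∈ GX T z X) :
    ∃ A : Cl, HoldX T z X A t := by
  have key : ∀ j : Fin 6, ∃ p : Fin 6 × Fin 6, p.1 ∈ T (pt z (t + (j.val : ℝ))) ∧
      p.2 ∈ T (pt z (t + (j.val : ℝ))) ∧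
      0 < Real.cos ((X p.1 - (t + (j.val : ℝ))) * (Real.pi / 3)) ∧
      Real.cos ((X p.2 - (t + (j.val : ℝ))) * (Real.pi / 3)) < 0 := by
    intro j
    set s : ℝ := t + (j.val : ℝ) with hs
    have hpt : dist (pt z s) z = 1 := dist_pt z s
    have hne : z ≠ pt z s := by
      intro h3
      rw [← h3, dist_self] at hpt
      exact zero_ne_one hpt
    obtain ⟨a, ha⟩ := occ_exists h (p := pt z s) (C := {x | dist x z < 1}) (m := z - pt z s)
      (isOpen_lt (continuous_id.dist continuous_const) continuous_const) (by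
        refine seg_in (dist_pt z s) ?_
        have h2 : 0 < Complex.normSq (z - pt z s) := by
          rw [Complex.normSq_pos]
          exact sub_ne_zero.2 hne
        rw [Complex.normSq_apply] at h2
        exact h2)
    have h2 : 0 < Complex.normSq (pt z s - z) := by
      rw [Complex.normSq_pos]
      exact sub_ne_zero.2 hne.symm
    obtain ⟨b, hb⟩ := occ_exists h (p := pt z s) (C := {x | 1 < dist x z}) (m := pt z s - z)
      (isOpen_lt continuous_const (continuous_id.dist continuous_const)) (by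
        refine seg_out hpt (fun h3 => ?_) ?_
        · rw [h3] at h2
          simp at h2
        · rw [Complex.normSq_apply] at h2
          unfold ip
          simp only [Complex.sub_re, Complex.sub_im] at h2 ⊢
          nlinarith)
    refine ⟨(a, b), ha.mem h, hb.mem h, ?_, ?_⟩
    · exact lt_of_le_of_ne ((hX a _).2 (H617.innN_of_occ h ha)) (cos_ne ht a j).symm
    · exact lt_of_le_of_ne ((hX b _).1 (H617.outN_of_occ h hb)) (cos_ne ht b j)
  choose A hA using key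
  exact ⟨A, hA⟩

/-! ### Frames -/

variable {K : ℕ} {uu : Fin K → ℝ} {FF : Fin K → Bool → Ultrafilter ℝ} {c : Fin K} {σ : Bool}

/-- **the frame of the times `uu`** for given open sets of times -/
theorem frK_of (h : Irr U T) (hm : StrictMono uu) (h1 : ∀ c c', uu c' < uu c + 1)
    {P : Fin K → Bool → ℝ → Prop} (ho : ∀ c σ, ∀ v, P c σ v → ∀ᶠ v' in 𝓝 v, P c σ v')
    (hl : ∀ c, ∃ᶠ v in 𝓝[<] (uu c), P c false v) (hr : ∀ c, ∃ᶠ v in 𝓝[>] (uu c), P c true v) :
    ∃ FF : Fin K → Bool → Ultrafilter ℝ, H437.FrK U T uu FF ∧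
      ∀ c σ, ∀ᶠ v in (FF c σ : Filter ℝ), P c σ v := by
  choose F hF h2 h3 using fun c => exists_fr_of (u := uu c) h (A := {v | P c false v})
    (A' := {v | P c true v}) ((hl c).mono fun v hv => ho c false v hv)
    ((hr c).mono fun v hv => ho c true v hv)
  refine ⟨F, ⟨h, hF, hm, h1⟩, ?_⟩
  intro c σ
  cases σ
  · exact h2 c
  · exact h3 c

/-- the literals of a column -/
def Units (T : ℂ → Set (Fin 6)) (z : ℂ) (uu : Fin K → ℝ) (FF : Fin K → Bool → Ultrafilter ℝ)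
    (c : Fin K) (σ : Bool) (A : Cl) : Prop :=
  ∀ j : Fin 6, IK T z uu FF c σ (q0 K) j (A j).1 ∧ OK T z uu FF c σ (q0 K) j (A j).2

/-- **held columns have their literals** -/
theorem units_of (hf : H437.FrK U T uu FF) (hX : ∀ i, X i ∈ HD U z i)
    (hA : ∀ᶠ v in (FF c σ : Filter ℝ), HoldX T z X A v) : Units T z uu FF c σ A := by
  intro j
  have h1 : (A j).1 ∈ H437.lt (FF c σ) T z (j.val : ℝ) := hA.mono fun v hv => (hv j).1
  have h2 : (A j).2 ∈ H437.lt (FF c σ) T z (j.val : ℝ) := hA.mono fun v hv => (hv j).2.1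
  have h3 := in_of_front (hf.fr c) (hX (A j).1) h1 (hA.mono fun v hv => (hv j).2.2.1).frequently
  have h4 := out_of_back (hf.fr c) (hX (A j).2) h2 (hA.mono fun v hv => (hv j).2.2.2).frequently
  unfold IK OK
  rw [lK_q0]
  exact ⟨h3.1, h4.1⟩

/-- **columns which are not held miss a literal** -/
theorem not_units (hf : H437.FrK U T uu FF) (hX : ∀ i, X i ∈ HD U z i)
    (hA : ∀ᶠ v in (FF c σ : Filter ℝ), v ∈ GX T z X ∧ ¬ HoldX T z X A v) :
    ¬ Units T z uu FF c σ A := by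
  intro hU
  have h1 : ∀ j : Fin 6, ∀ᶠ v in (FF c σ : Filter ℝ),
      OccIn T (pt z (v + (j.val : ℝ))) {x | dist x z < 1} (A j).1 ∧
      OccIn T (pt z (v + (j.val : ℝ))) {x | 1 < dist x z} (A j).2 := by
    intro j
    have h2 := hU j
    unfold IK OK at h2
    rw [lK_q0] at h2
    exact Filter.Eventually.and h2.1 h2.2
  obtain ⟨v, ⟨h2, h3⟩, h4⟩ := (hA.and (eventually_all.2 h1)).exists
  refine h3 fun j => ⟨(h4 j).1.mem hf.irr, (h4 j).2.mem hf.irr, ?_, ?_⟩
  · exact lt_of_le_of_ne ((hX _ _).2 (H617.innN_of_occ hf.irr (h4 j).1)) (cos_ne h2 _ j).symm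
  · exact lt_of_le_of_ne ((hX _ _).1 (H617.outN_of_occ hf.irr (h4 j).2)) (cos_ne h2 _ j)

/-- `v` generic and `A` held is an open condition -/
theorem open_hold (A : Cl) {v : ℝ} (hv : v ∈ GX T z X ∧ HoldX T z X A v) :
    ∀ᶠ v' in 𝓝 v, v' ∈ GX T z X ∧ HoldX T z X A v' := by
  have ho : IsOpen (GX T z X) := (WinData.L0_open T z).sdiff (WinData.M_closed X X)
  filter_upwards [ho.mem_nhds hv.1, holdX_const (A := A) hv.1] with v' h1 h2
  exact ⟨h1, h2.2 hv.2⟩

theorem open_not (S : Set Cl) {v : ℝ} (hv : v ∈ GX T z X ∧ ∀ c ∈ S, ¬ HoldX T z X c v) :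
    ∀ᶠ v' in 𝓝 v, v' ∈ GX T z X ∧ ∀ c ∈ S, ¬ HoldX T z X c v' := by
  have ho : IsOpen (GX T z X) := (WinData.L0_open T z).sdiff (WinData.M_closed X X)
  have h1 : ∀ᶠ v' in 𝓝 v, ∀ c : Cl, (HoldX T z X c v' ↔ HoldX T z X c v) :=
    eventually_all.2 fun c => holdX_const hv.1
  filter_upwards [ho.mem_nhds hv.1, h1] with v' h2 h3
  exact ⟨h2, fun c hc h4 => hv.2 c hc ((h3 c).1 h4)⟩

/-- **The frame of one step of a closure (two times).** -/
theorem frame_two (h : Irr U T) (hX : ∀ i, X i ∈ HD U z i) {u x : ℝ} (h0 : u < x) (h1 : x < u + 1)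
    {B A c : Cl} {S : Set Cl}
    (hB : ∃ᶠ v in 𝓝[<] u, v ∈ GX T z X ∧ HoldX T z X B v)
    (hA : ∃ᶠ v in 𝓝[>] u, v ∈ GX T z X ∧ HoldX T z X A v)
    (hc : ∃ᶠ v in 𝓝[<] x, v ∈ GX T z X ∧ HoldX T z X c v)
    (hS : ∃ᶠ v in 𝓝[>] x, v ∈ GX T z X ∧ ∀ c' ∈ S, ¬ HoldX T z X c' v) :
    ∃ FF : Fin 2 → Bool → Ultrafilter ℝ, H437.FrK U T ![u, x] FF ∧
      Units T z ![u, x] FF 0 false B ∧ Units T z ![u, x] FF 0 true A ∧
      Units T z ![u, x] FF 1 false c ∧ ∀ c' ∈ S, ¬ Units T z ![u, x] FF 1 true c' := by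
  obtain ⟨FF, hf, hP⟩ := frK_of (uu := ![u, x]) h (by
      intro a b hab
      fin_cases a <;> fin_cases b <;> simp_all) (by
      intro a b
      fin_cases a <;> fin_cases b <;> simp <;> linarith)
    (P := fun c' σ v => v ∈ GX T z X ∧
      (if c' = 0 then HoldX T z X (cond σ A B) v
        else cond σ (∀ c'' ∈ S, ¬ HoldX T z X c'' v) (HoldX T z X c v)))
    (by
      intro c' σ v hv
      fin_cases c' <;> cases σ
      · exact open_hold B hv
      · exact open_hold A hv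
      · exact open_hold c hv
      · exact open_not S hv)
    (by
      intro c'
      fin_cases c'
      · exact hB
      · exact hc)
    (by
      intro c'
      fin_cases c'
      · exact hA
      · exact hS)
  refine ⟨FF, hf, units_of hf hX ?_, units_of hf hX ?_, units_of hf hX ?_, fun c' hc' =>
    not_units hf hX ?_⟩
  · exact (hP 0 false).mono fun v hv => hv.2
  · exact (hP 0 true).mono fun v hv => hv.2
  · exact (hP 1 false).mono fun v hv => hv.2
  · exact (hP 1 true).mono fun v hv => ⟨hv.1, hv.2 c' hc'⟩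

/-- **The frame of one step of a backward closure (two times).** -/
theorem frame_two' (h : Irr U T) (hX : ∀ i, X i ∈ HD U z i) {u x : ℝ} (h0 : u - 1 < x) (h1 : x < u)
    {B A c : Cl} {S : Set Cl}
    (hB : ∃ᶠ v in 𝓝[<] u, v ∈ GX T z X ∧ HoldX T z X B v)
    (hA : ∃ᶠ v in 𝓝[>] u, v ∈ GX T z X ∧ HoldX T z X A v)
    (hS : ∃ᶠ v in 𝓝[<] x, v ∈ GX T z X ∧ ∀ c' ∈ S, ¬ HoldX T z X c' v)
    (hc : ∃ᶠ v in 𝓝[>] x, v ∈ GX T z X ∧ HoldX T z X c v) :
    ∃ FF : Fin 2 → Bool → Ultrafilter ℝ, H437.FrK U T ![x, u] FF ∧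
      Units T z ![x, u] FF 1 false B ∧ Units T z ![x, u] FF 1 true A ∧
      Units T z ![x, u] FF 0 true c ∧ ∀ c' ∈ S, ¬ Units T z ![x, u] FF 0 false c' := by
  obtain ⟨FF, hf, hP⟩ := frK_of (uu := ![x, u]) h (by
      intro a b hab
      fin_cases a <;> fin_cases b <;> simp_all) (by
      intro a b
      fin_cases a <;> fin_cases b <;> simp <;> linarith)
    (P := fun c' σ v => v ∈ GX T z X ∧
      (if c' = 1 then HoldX T z X (cond σ A B) v
        else cond σ (HoldX T z X c v) (∀ c'' ∈ S, ¬ HoldX T z X c'' v)))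
    (by
      intro c' σ v hv
      fin_cases c' <;> cases σ
      · exact open_not S hv
      · exact open_hold c hv
      · exact open_hold B hv
      · exact open_hold A hv)
    (by
      intro c'
      fin_cases c'
      · exact hS
      · exact hB)
    (by
      intro c'
      fin_cases c'
      · exact hc
      · exact hA)
  refine ⟨FF, hf, units_of hf hX ?_, units_of hf hX ?_, units_of hf hX ?_, fun c' hc' =>
    not_units hf hX ?_⟩
  · exact (hP 1 false).mono fun v hv => hv.2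
  · exact (hP 1 true).mono fun v hv => hv.2
  · exact (hP 0 true).mono fun v hv => hv.2
  · exact (hP 0 false).mono fun v hv => ⟨hv.1, hv.2 c' hc'⟩

/-- **A closed set of columns, generic base**: the certificates are the hypothesis `cert`. -/
theorem no_colX (h : Irr U T) (hX : ∀ i, X i ∈ HD U z i) {S : Set Cl} (hBS : B ∈ S)
    (hov : ∀ c ∈ S, Ov c (sh B))
    (cert : ∀ (x : ℝ) (FF : Fin 2 → Bool → Ultrafilter ℝ), H437.FrK U T ![u, x] FF →
      Units T z ![u, x] FF 0 false B → Units T z ![u, x] FF 0 true B → ∀ c ∈ S,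
      Units T z ![u, x] FF 1 false c → (∀ c' ∈ S, ¬ Units T z ![u, x] FF 1 true c') → False)
    (hu : u ∈ GX T z X) (hB : HoldX T z X B u) : False := by
  have hn : ∀ᶠ v in 𝓝 u, v ∈ GX T z X ∧ HoldX T z X B v := open_hold B ⟨hu, hB⟩
  refine (line_of h z X).no_col hBS hov (fun x h0 h1 c hc h2 h3 => ?_) hu hB
  obtain ⟨FF, hf, h4, h5, h6, h7⟩ := frame_two h hX h0 h1
    (hn.filter_mono nhdsWithin_le_nhds).frequently (hn.filter_mono nhdsWithin_le_nhds).frequently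
    h2 h3
  exact cert x FF hf h4 h5 c hc h6 h7

/-- **A closed set of columns, base `B | A`.** -/
theorem no_eventX (h : Irr U T) (hX : ∀ i, X i ∈ HD U z i) {S : Set Cl} (hAS : A ∈ S)
    (hov : ∀ c ∈ S, Ov c (sh B))
    (cert : ∀ (x : ℝ) (FF : Fin 2 → Bool → Ultrafilter ℝ), H437.FrK U T ![u, x] FF →
      Units T z ![u, x] FF 0 false B → Units T z ![u, x] FF 0 true A → ∀ c ∈ S,
      Units T z ![u, x] FF 1 false c → (∀ c' ∈ S, ¬ Units T z ![u, x] FF 1 true c') → False)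
    (hB : ∃ᶠ v in 𝓝[<] u, v ∈ GX T z X ∧ HoldX T z X B v)
    (hA : ∃ᶠ v in 𝓝[>] u, v ∈ GX T z X ∧ HoldX T z X A v) : False := by
  refine (line_of h z X).no_event hAS hov (fun x h0 h1 c hc h2 h3 => ?_) hB hA
  obtain ⟨FF, hf, h4, h5, h6, h7⟩ := frame_two h hX h0 h1 hB hA h2 h3
  exact cert x FF hf h4 h5 c hc h6 h7

/-- **A closed set of columns, base `B | A`, backwards.** -/
theorem no_eventX' (h : Irr U T) (hX : ∀ i, X i ∈ HD U z i) {S : Set Cl} (hBS : B ∈ S)
    (hov : ∀ c ∈ S, Ov c fun j => A (j - 1))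
    (cert : ∀ (x : ℝ) (FF : Fin 2 → Bool → Ultrafilter ℝ), H437.FrK U T ![x, u] FF →
      Units T z ![x, u] FF 1 false B → Units T z ![x, u] FF 1 true A → ∀ c ∈ S,
      Units T z ![x, u] FF 0 true c → (∀ c' ∈ S, ¬ Units T z ![x, u] FF 0 false c') → False)
    (hB : ∃ᶠ v in 𝓝[<] u, v ∈ GX T z X ∧ HoldX T z X B v)
    (hA : ∃ᶠ v in 𝓝[>] u, v ∈ GX T z X ∧ HoldX T z X A v) : False := by
  refine (line_of h z X).no_event' hBS hov (fun x h0 h1 c hc h2 h3 => ?_) hB hA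
  obtain ⟨FF, hf, h4, h5, h6, h7⟩ := frame_two' h hX h0 h1 hB hA h2 h3
  exact cert x FF hf h4 h5 c hc h6 h7

end Vale.Agent.P032.H314
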